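import Crest.Agent.R166.LD.Basic

/-!
# Row 166, block LD: the graph side
-/

set_option autoImplicit false
set_option linter.unusedSectionVars false

open MeasureTheory ProbabilityTheory Filter Topology Complex
open scoped ENNReal NNReal BigOperators Matrix ComplexConjugate

noncomputable section

namespace Crest.Agent.R166

theorem ld_abs_avg_le {ι : Type} [Fintype ι] {f : ι → ℝ} {C : ℝ} (hC : 0 ≤ C)
    (hf : ∀ i, |f i| ≤ C) : |avg f| ≤ C := by
  unfold avg
  rcases Nat.eq_zero_or_pos (Fintype.card ι) with h | h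
  · simp [h, hC]
  · have h0 : (0 : ℝ) < Fintype.card ι := by exact_mod_cast h
    rw [abs_div, abs_of_pos h0, div_le_iff₀ h0]
    refine (Finset.abs_sum_le_sum_abs _ _).trans ((Finset.sum_le_sum fun i _ => hf i).trans ?_)
    simp [mul_comm]

theorem ld_avg_sub {ι : Type} [Fintype ι] (f g : ι → ℝ) :
    avg (fun i => f i - g i) = avg f - avg g := by
  unfold avg; rw [Finset.sum_sub_distrib, sub_div]

theorem ld_avg_const {ι : Type} [Fintype ι] [Nonempty ι] (a : ℝ) : avg (fun _ : ι => a) = a := by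
  unfold avg
  have : (Fintype.card ι : ℝ) ≠ 0 := by exact_mod_cast Fintype.card_ne_zero
  simp

theorem ld_avg_mul {ι : Type} [Fintype ι] (a : ℝ) (f : ι → ℝ) :
    avg (fun i => a * f i) = a * avg f := by
  unfold avg; rw [← Finset.mul_sum, mul_div_assoc]

theorem ld_avg_mono {ι : Type} [Fintype ι] {f g : ι → ℝ} (h : ∀ i, f i ≤ g i) : avg f ≤ avg g := by
  unfold avg
  gcongr with i
  exact h i

theorem ld_avg_add {ι : Type} [Fintype ι] (f g : ι → ℝ) :
    avg (fun i => f i + g i) = avg f + avg g := by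
  unfold avg; rw [Finset.sum_add_distrib, add_div]

theorem ld_abs_avg {ι : Type} [Fintype ι] (f : ι → ℝ) : |avg f| ≤ avg fun i => |f i| := by
  unfold avg
  rw [abs_div, Nat.abs_cast]
  gcongr
  exact Finset.abs_sum_le_sum_abs _ _

section
variable {V : Type} [Fintype V] [DecidableEq V] {q : ℕ}

theorem ld_avg_he (f : V → ℝ) : avg (fun h : HE V q => f h.1) = avg f := by
  unfold avg
  rw [Fintype.sum_prod_type]
  simp only [Finset.sum_const, Finset.card_univ, Fintype.card_fin, nsmul_eq_mul, Fintype.card_prod]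
  rw [← Finset.mul_sum]
  have : ((q + 1 : ℕ) : ℝ) ≠ 0 := by positivity
  push_cast at this ⊢
  rcases eq_or_ne (Fintype.card V : ℝ) 0 with h | h
  · simp [h]
  · field_simp

theorem ld_adj_symm (σ : Pairing V q) (u v : V) : adj σ u v = adj σ v u := by
  unfold adj
  congr 1
  have key : ∀ a b : V, (Finset.univ.filter fun i : Fin (q + 1) => (σ (a, i)).1 = b).card ≤
      (Finset.univ.filter fun i : Fin (q + 1) => (σ (b, i)).1 = a).card := by
    intro a b
    refine Finset.card_le_card_of_injOn (fun i => (σ (a, i)).2) ?_ ?_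
    · intro i hi
      simp only [Finset.coe_filter, Finset.mem_univ, true_and, Set.mem_ofPred_eq] at hi ⊢
      have : ((b, (σ (a, i)).2) : HE V q) = σ (a, i) := by rw [← hi]
      rw [this, (σ.2 _).1]
    · intro i hi j hj hij
      simp only [Finset.coe_filter, Finset.mem_univ, true_and, Set.mem_ofPred_eq] at hi hj hij
      have : σ (a, i) = σ (a, j) := Prod.ext (hi.trans hj.symm) hij
      have := σ.1.injective this
      exact (Prod.ext_iff.mp this).2
  exact le_antisymm (key u v) (key v u)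

theorem ld_herm (s : ℝ) (c : Cfg V q) : (Hm s c).IsHermitian := by
  unfold Hm
  refine Matrix.IsHermitian.add ?_ (Matrix.isHermitian_diagonal _)
  ext u v
  simp [Matrix.conjTranspose_apply, ld_adj_symm c.1 v u]

theorem ld_row_sum (σ : Pairing V q) (u : V) : ∑ v, adj σ u v = q + 1 := by
  unfold adj
  have := Finset.card_eq_sum_card_fiberwise (s := (Finset.univ : Finset (Fin (q + 1))))
    (t := (Finset.univ : Finset V)) (f := fun i => (σ (u, i)).1) (fun _ _ => Finset.mem_univ _)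
  rw [← Nat.cast_sum, ← this]
  simp

theorem ld_eig_bound {s : ℝ} (hs0 : 0 ≤ s) (hs1 : s ≤ 1) (c : Cfg V q) (u : V → ℝ) (lam : ℝ)
    (hu : Hm s c *ᵥ u = lam • u) (h0 : ∑ v, u v * u v = 1) : |lam| ≤ q + 2 := by
  have hne : (Finset.univ : Finset V).Nonempty := by
    by_contra h
    rw [Finset.not_nonempty_iff_eq_empty] at h
    rw [h] at h0; simp at h0
  obtain ⟨x, -, hx⟩ := Finset.exists_max_image Finset.univ (fun v => |u v|) hne
  have hx0 : 0 < |u x| := by
    by_contra h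
    have h1 : ∀ v, u v = 0 := fun v =>
      abs_eq_zero.mp (le_antisymm ((hx v (Finset.mem_univ _)).trans (not_lt.mp h)) (abs_nonneg _))
    simp [h1] at h0
  have h1 := congrFun hu x
  simp only [Hm, Matrix.add_mulVec, Pi.add_apply, Matrix.mulVec_diagonal, Pi.smul_apply,
    smul_eq_mul] at h1
  have h2 : |(adj c.1 *ᵥ u) x| ≤ (q + 1) * |u x| := by
    rw [← ld_row_sum c.1 x, Finset.sum_mul]
    refine (Finset.abs_sum_le_sum_abs _ _).trans (Finset.sum_le_sum fun v _ => ?_)
    have : 0 ≤ adj c.1 x v := Nat.cast_nonneg _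
    rw [abs_mul, abs_of_nonneg this]
    exact mul_le_mul_of_nonneg_left (hx v (Finset.mem_univ _)) this
  have h3 : |s * (c.2 x : ℝ) * u x| ≤ |u x| := by
    rw [abs_mul, abs_mul, abs_of_nonneg hs0]
    have a1 := abs_le.mpr (c.2 x).2
    have a2 := abs_nonneg (c.2 x : ℝ)
    have : s * |(c.2 x : ℝ)| ≤ 1 := by nlinarith
    nlinarith
  have h4 : |lam| * |u x| ≤ (q + 2) * |u x| := by
    rw [← abs_mul, ← h1]
    refine (abs_add_le _ _).trans ?_
    linarith
  exact le_of_mul_le_mul_right h4 hx0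

/-- normalised logarithmic potential of the spectrum -/
def ldF (A : Matrix V V ℝ) (z : ℂ) : ℝ := avg fun i => Real.log ‖(ev A i : ℂ) - z‖

theorem ld_ev_ne (lam : ℝ) {z : ℂ} (hz : 0 < z.im) : (lam : ℂ) ≠ z := by
  intro h; rw [← h] at hz; simp at hz

theorem ld_ev_norm (lam : ℝ) (z : ℂ) : z.im ≤ ‖(lam : ℂ) - z‖ := by
  have := Complex.abs_im_le_norm ((lam : ℂ) - z)
  simp only [Complex.sub_im, Complex.ofReal_im, zero_sub, abs_neg] at this
  exact (le_abs_self _).trans this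

theorem ld_inv_im (lam : ℝ) (z : ℂ) : ((lam : ℂ) - z)⁻¹.im = z.im / ‖(lam : ℂ) - z‖ ^ 2 := by
  rw [Complex.inv_im, Complex.normSq_eq_norm_sq]; simp

variable (hE : StE)
include hE

theorem ld_ev_bound {s : ℝ} (hs0 : 0 ≤ s) (hs1 : s ≤ 1) (c : Cfg V q) (i : V) :
    |ev (Hm s c) i| ≤ q + 2 := by
  obtain ⟨u, h1, h2, -, -⟩ := (hE V).2 _ (ld_herm s c)
  exact ld_eig_bound hs0 hs1 c (u i) _ (h1 i) (by simpa using h2 i i)

theorem ld_logdet [Nonempty V] {A : Matrix V V ℝ} (hA : A.IsHermitian) {z : ℂ} (hz : 0 < z.im) :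
    Real.log (imM (Gr A z)).det / Fintype.card V = Real.log z.im - 2 * ldF A z := by
  obtain ⟨u, -, h2, -, h4⟩ := (hE V).2 A hA
  have hG := h4 z fun i => ld_ev_ne _ hz
  let U : Matrix V V ℝ := Matrix.of u
  let d : V → ℝ := fun i => z.im / ‖(ev A i : ℂ) - z‖ ^ 2
  have hfac : imM (Gr A z) = Uᵀ * Matrix.diagonal d * U := by
    ext x y
    simp only [imM, Matrix.map_apply, hG, Complex.im_sum, Matrix.mul_apply, Matrix.transpose_apply,
      Matrix.diagonal_apply, U, Matrix.of_apply, mul_ite, mul_zero, Finset.sum_ite_eq',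
      Finset.mem_univ, if_true]
    refine Finset.sum_congr rfl fun i _ => ?_
    rw [div_eq_mul_inv, Complex.im_ofReal_mul, ld_inv_im]
    simp only [d]; ring
  have hU : U * Uᵀ = 1 := by
    ext i j
    simp [U, Matrix.mul_apply, h2, Matrix.one_apply]
  have hdU : U.det * U.det = 1 := by
    have := congrArg Matrix.det hU
    rwa [Matrix.det_mul, Matrix.det_transpose, Matrix.det_one] at this
  have hn : ∀ i, 0 < ‖(ev A i : ℂ) - z‖ := fun i => hz.trans_le (ld_ev_norm _ z)
  have hd : ∀ i, 0 < d i := fun i => div_pos hz (pow_pos (hn i) 2)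
  have hdet : (imM (Gr A z)).det = ∏ i, d i := by
    rw [hfac, Matrix.det_mul, Matrix.det_mul, Matrix.det_transpose, Matrix.det_diagonal]
    linear_combination (∏ i, d i) * hdU
  have hlog : ∀ i, Real.log (d i) = Real.log z.im - 2 * Real.log ‖(ev A i : ℂ) - z‖ := by
    intro i
    simp only [d]
    rw [Real.log_div hz.ne' (pow_pos (hn i) 2).ne', Real.log_pow]; push_cast; ring
  rw [hdet, Real.log_prod (fun i _ => (hd i).ne')]
  have : (∑ i, Real.log (d i)) / Fintype.card V = avg fun i => Real.log (d i) := rfl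
  rw [this]
  simp only [hlog]
  rw [ld_avg_sub, ld_avg_const, ld_avg_mul]; rfl

theorem ld_trace {A : Matrix V V ℝ} (hA : A.IsHermitian) {z : ℂ} (hz : 0 < z.im) :
    avg (fun v => (Gr A z v v).im) = avg fun i => ((ev A i : ℂ) - z)⁻¹.im := by
  obtain ⟨u, -, h2, -, h4⟩ := (hE V).2 A hA
  have hG := h4 z fun i => ld_ev_ne _ hz
  unfold avg
  congr 1
  simp only [hG, Complex.im_sum]
  rw [Finset.sum_comm]
  refine Finset.sum_congr rfl fun i _ => ?_
  simp only [div_eq_mul_inv, Complex.im_ofReal_mul]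
  rw [← Finset.sum_mul, h2 i i]; simp

theorem ld_norm_G {A : Matrix V V ℝ} (hA : A.IsHermitian) {z : ℂ} (hz : 0 < z.im) (x : V) :
    ‖Gr A z x x‖ ≤ z.im⁻¹ := by
  obtain ⟨u, -, -, h3, h4⟩ := (hE V).2 A hA
  rw [h4 z (fun i => ld_ev_ne _ hz) x x]
  refine (norm_sum_le _ _).trans ?_
  have h5 : ∑ i, u i x * u i x = 1 := by simpa using h3 x x
  calc ∑ i, ‖((u i x * u i x : ℝ) : ℂ) / ((ev A i : ℂ) - z)‖ ≤ ∑ i, u i x * u i x * z.im⁻¹ := by
        refine Finset.sum_le_sum fun i _ => ?_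
        rw [norm_div, Complex.norm_real, Real.norm_eq_abs, abs_mul_self, div_eq_mul_inv]
        exact mul_le_mul_of_nonneg_left (inv_anti₀ hz (ld_ev_norm _ z)) (mul_self_nonneg _)
    _ = z.im⁻¹ := by rw [← Finset.sum_mul, h5, one_mul]

theorem ld_F_step {A : Matrix V V ℝ} (hA : A.IsHermitian) {z : ℂ} {η h : ℝ} (hη : 0 < η)
    (hz : η ≤ z.im) (hh : 0 ≤ h) (hh2 : h ≤ η / 2) :
    |ldF A (z + h * I) - ldF A z - h * avg (fun v => (Gr A z v v).im)| ≤ 1 / η ^ 2 * h ^ 2 := by
  have hz0 : 0 < z.im := hη.trans_le hz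
  rw [ld_trace hE hA hz0]
  unfold ldF
  rw [← ld_avg_mul, ← ld_avg_sub, ← ld_avg_sub]
  refine ld_abs_avg_le (by positivity) fun i => ?_
  have hn := hz.trans (ld_ev_norm (ev A i) z)
  have hx : ‖(-(h * I) : ℂ)‖ = h := by simp [abs_of_nonneg hh]
  have := ld_log_expand ((ev A i : ℂ) - z) (-(h * I)) (sub_ne_zero.mpr (ld_ev_ne _ hz0))
    (by rw [hx]; linarith)
  have h1 : (ev A i : ℂ) - z + -(h * I) = ev A i - (z + h * I) := by ring
  have h2 : (-(h * I : ℂ) / ((ev A i : ℂ) - z)).re = h * ((ev A i : ℂ) - z)⁻¹.im := by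
    rw [div_eq_mul_inv]
    generalize ((ev A i : ℂ) - z)⁻¹ = w
    simp
  rw [h1, h2, hx] at this
  refine this.trans ?_
  rw [div_mul_eq_mul_div, one_mul]
  gcongr

theorem ld_F_far [Nonempty V] {s : ℝ} (hs0 : 0 ≤ s) (hs1 : s ≤ 1) (c : Cfg V q) (E M : ℝ)
    (hM : 2 * (|E| + q + 2) ≤ M) :
    |ldF (Hm s c) (E + M * I) - Real.log M| ≤ 2 * (|E| + q + 2) / M := by
  have hE0 := abs_nonneg E
  have hq : (0 : ℝ) ≤ q := Nat.cast_nonneg q
  have hM0 : 0 < M := by linarith
  unfold ldF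
  rw [← ld_avg_const (ι := V) (Real.log M), ← ld_avg_sub]
  refine ld_abs_avg_le (by positivity) fun i => ?_
  have hn : ‖(-(M * I) : ℂ)‖ = M := by simp [abs_of_pos hM0]
  have hx : ‖((ev (Hm s c) i - E : ℝ) : ℂ)‖ ≤ |E| + q + 2 := by
    rw [Complex.norm_real, Real.norm_eq_abs]
    have := ld_ev_bound hE hs0 hs1 c i
    have h2 := abs_sub (ev (Hm s c) i) E
    linarith
  have := ld_log_close (-(M * I)) ((ev (Hm s c) i - E : ℝ) : ℂ) (by simp [hM0.ne'])
    (by rw [hn]; linarith)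
  have h1 : -(M * I : ℂ) + ((ev (Hm s c) i - E : ℝ) : ℂ) = ev (Hm s c) i - (E + M * I) := by
    push_cast; ring
  rw [h1, hn] at this
  refine this.trans ?_
  rw [mul_div_assoc]; gcongr

end

end Crest.Agent.R166
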