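import Crest.Agent.R166.LD.Step
import Crest.Agent.R166.LD.Graph

/-!
# Row 166, block LD: the log-determinant converges to the Bethe expression
-/

set_option autoImplicit false

open MeasureTheory ProbabilityTheory Filter Topology Complex
open scoped ENNReal NNReal BigOperators Matrix ComplexConjugate

noncomputable section

namespace Crest.Agent.R166

/-- the normalised trace of `Im G(z)` converges to its tree value -/
theorem ld_whp_trace (hE : StE) (hP : StP4) (hT : StT0) {q : ℕ} (π : Measure II)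
    [IsProbabilityMeasure π] {s κ : ℝ} (hs0 : 0 ≤ s) (hs1 : s ≤ 1) (hL : LL1 q π s κ) {z : ℂ}
    (hB : Bulk q κ z.re) (hz : 0 < z.im) {ε : ℝ} (hε : 0 < ε) :
    Whp q π fun n c => |avg (fun v => (Gr (Hm s c) z v v).im) - ldG q π s z| ≤ ε := by
  classical
  have hη : 0 < z.im⁻¹ := inv_pos.mpr hz
  have h1 : Whp q π fun n c => |avg (fun v => (Gr (Hm s c) z v v).im) -
      avg fun h : HE (Fin n) q => (GS s z (sview c h) none none).im| ≤ ε / 2 := by
    refine ld_whp_of_small fun p hp => ?_
    set e : ℝ := min p (ε / 2 / (1 + 2 * z.im⁻¹)) with he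
    have he0 : 0 < e := by positivity
    have he1 : (1 + 2 * z.im⁻¹) * e ≤ ε / 2 := by
      have : e ≤ ε / 2 / (1 + 2 * z.im⁻¹) := min_le_right _ _
      rwa [le_div_iff₀' (by positivity)] at this
    obtain ⟨δ, L₀, hδ, hLL⟩ := hL e z.im he0
    have hev : ∀ᶠ n : ℕ in atTop, L₀ / n ≤ z.im :=
      (tendsto_const_div_atTop_nhds_zero_nat L₀).eventually (ge_mem_nhds hz)
    filter_upwards [hLL z hz hB, hev] with n hn hn'
    refine le_trans (measure_mono ?_) ((hn z hB (by simpa using hδ.le) hz hn' le_rfl).trans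
      (ENNReal.ofReal_le_ofReal (min_le_left _ _)))
    rintro c ⟨hc1, hc2⟩
    refine ⟨hc1, ?_⟩
    by_contra hcon
    apply hc2
    rw [not_lt] at hcon
    rw [← ld_avg_he (q := q), ← ld_avg_sub]
    refine (ld_abs_avg _).trans ?_
    set bad : HE (Fin n) q → Prop := fun h => ∃ a b,
      e < ‖Gr (Hm s c) z (sp c.1 h a) (sp c.1 h b) - GS s z (sview c h) a b‖ with hbad
    have h2 : ∀ h : HE (Fin n) q, |(Gr (Hm s c) z h.1 h.1).im - (GS s z (sview c h) none none).im| ≤
        e + 2 * z.im⁻¹ * (if bad h then (1 : ℝ) else 0) := by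
      intro h
      rw [← Complex.sub_im]
      refine (Complex.abs_im_le_norm _).trans ?_
      split_ifs with hb
      · have a1 := ld_norm_G hE (ld_herm s c) hz h.1
        have a2 := ld_norm_g hT hs0 hs1 hz (sview c h)
        have a3 := norm_sub_le (Gr (Hm s c) z h.1 h.1) (GS s z (sview c h) none none)
        linarith
      · simp only [hbad, not_exists, not_lt] at hb
        have := hb none none
        simpa [sp] using this
    refine (ld_avg_mono h2).trans ?_
    rw [ld_avg_add, ld_avg_mul]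
    have h3 : avg (fun _ : HE (Fin n) q => e) ≤ e :=
      (le_abs_self _).trans (ld_abs_avg_le he0.le fun _ => (abs_of_pos he0).le)
    have h4 : avg (fun h : HE (Fin n) q => if bad h then (1 : ℝ) else 0) ≤ e := by
      refine le_trans (le_of_eq ?_) hcon
      unfold frac
      congr 1
      funext i
      congr
    nlinarith
  have h2' : ∀ φ : C(SEnv q, ℝ), Whp q π fun n c =>
      |(avg fun h : HE (Fin n) q => φ (sview c h)) - ∫ e, φ e ∂starLaw q π| ≤ ε / 2 := fun φ =>
    tendsto_of_tendsto_of_tendsto_of_le_of_le tendsto_const_nhds (hP q π φ (ε / 2) (by positivity))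
      (fun _ => zero_le) fun _ => measure_mono fun _ hc => not_le.1 hc.2
  have h2 := h2' ⟨fun e => (GS s z e none none).im, ld_cont_g hT hs0 hs1 hz⟩
  refine ld_whp_mono (ld_whp_and h1 h2) (Eventually.of_forall fun n c _ hc => ?_)
  have h3 := abs_le.mp hc.1
  have h4 := abs_le.mp hc.2
  simp only [ContinuousMap.coe_mk] at h4
  unfold ldG
  rw [abs_le]
  constructor <;> linarith [h3.1, h3.2, h4.1, h4.2]

theorem stLD (hE : StE) (hP : StP4) (hT : StT0) (hEnv : StEnv) : StLD := by
  intro q π _ s κ z hs0 hs1 hL hB hz ε hε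
  set E := z.re with hEdef
  set η := z.im with hηdef
  have hE0 := abs_nonneg E
  have hq : (0 : ℝ) ≤ q := Nat.cast_nonneg q
  set A : ℝ := |E| + q + 2 with hA
  have hA0 : 0 < A := by positivity
  -- the height `M`
  set M : ℝ := max (η + 1) (max (2 * A) ((4 * A + (q + 1)) / (ε / 8))) with hM
  have hM1 : η + 1 ≤ M := le_max_left _ _
  have hM2 : 2 * A ≤ M := (le_max_left _ _).trans (le_max_right _ _)
  have hM3 : (4 * A + (q + 1)) / (ε / 8) ≤ M := (le_max_right _ _).trans (le_max_right _ _)
  have hM0 : 0 < M := by linarith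
  have hM4 : (4 * A + (q + 1)) / M ≤ ε / 8 := by
    rw [div_le_iff₀ (by positivity)] at hM3
    rw [div_le_iff₀ hM0]; linarith
  obtain ⟨K, h₀, hh₀, hK⟩ := ld_B_step hT hEnv (q := q) hs0 hs1 π η (|E| + M) hz
  set T : ℝ := M - η with hTdef
  have hT0 : 0 < T := by linarith
  set K' : ℝ := |K| + 1 / η ^ 2 with hK'
  have hK'0 : 0 < K' := by positivity
  -- the mesh
  set h₁ : ℝ := min h₀ (min (η / 2) (ε / 8 / (T * K'))) with hh₁
  have hh₁0 : 0 < h₁ := by positivity
  obtain ⟨N, hN⟩ := exists_nat_gt (T / h₁)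
  have hN0 : (0 : ℝ) < N := lt_trans (by positivity) hN
  set h : ℝ := T / N with hh
  have hh0 : 0 < h := by positivity
  have hNh : N * h = T := by rw [hh]; field_simp
  have hhle : h ≤ h₁ := by
    rw [div_lt_iff₀ hh₁0] at hN
    rw [hh, div_le_iff₀ hN0]; linarith
  have hha : h ≤ h₀ := hhle.trans (min_le_left _ _)
  have hhb : h ≤ η / 2 := hhle.trans ((min_le_right _ _).trans (min_le_left _ _))
  have hhc : T * K' * h ≤ ε / 8 := by
    have := hhle.trans ((min_le_right _ _).trans (min_le_right _ _))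
    rwa [le_div_iff₀' (by positivity)] at this
  -- the grid
  let w : ℕ → ℂ := fun k => E + (η + k * h : ℝ) * I
  have hwre : ∀ k, (w k).re = E := fun k => by simp [w]
  have hwim : ∀ k, (w k).im = η + k * h := fun k => by simp [w]
  have hwη : ∀ k, η ≤ (w k).im := fun k => by
    rw [hwim]; have : (0 : ℝ) ≤ k * h := by positivity
    linarith
  have hwpos : ∀ k, 0 < (w k).im := fun k => hz.trans_le (hwη k)
  have hw0 : w 0 = z := by
    apply Complex.ext <;> simp [w, hEdef, hηdef]
  have hwN : w N = E + M * I := by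
    simp only [w]; rw [hNh, hTdef]; congr 2; push_cast; ring
  have hws : ∀ k, w (k + 1) = w k + h * I := fun k => by
    simp only [w]; push_cast; ring
  have hwn : ∀ k, k ≤ N → ‖w k‖ ≤ |E| + M := by
    intro k hk
    refine (Complex.norm_le_abs_re_add_abs_im _).trans ?_
    rw [hwre, abs_of_pos (hwpos k), hwim]
    have : (k : ℝ) * h ≤ N * h := by gcongr
    linarith
  have hW := ld_whp_all (q := q) (π := π)
    (p := fun k n c => |avg (fun v => (Gr (Hm s c) (w k) v v).im) - ldG q π s (w k)| ≤ ε / 8 / T) N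
    fun k _ => ld_whp_trace hE hP hT π hs0 hs1 hL (by rw [hwre]; exact hB) (hwpos k)
      (by positivity)
  refine ld_whp_mono hW ?_
  filter_upwards [eventually_ge_atTop 1] with n hn c _ hc
  have : Nonempty (Fin n) := ⟨⟨0, hn⟩⟩
  have e1 := ld_logdet hE (ld_herm s c) hz
  rw [Fintype.card_fin] at e1
  rw [e1, ld_hBethe hT hs0 hs1 hEnv π hz]
  have t1 := ld_telescope (fun k => ldF (Hm s c) (w k)) (fun k => ldB q π s (w k)) N
    (h * (ε / 8 / T) + K' * h ^ 2) (by
      intro k hk
      have a1 := ld_F_step hE (ld_herm s c) hz (hwη k) hh0.le hhb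
      have a2 := hK (w k) h (hwη k) hh0.le hha (hwn k hk.le) (by rw [← hws]; exact hwn _ hk)
      rw [← hws] at a1 a2
      have a3 := abs_le.mp (hc k hk)
      have a4 := abs_le.mp a1
      have a5 := abs_le.mp (a2.trans (mul_le_mul_of_nonneg_right (le_abs_self K) (sq_nonneg h)))
      have a6 := mul_le_mul_of_nonneg_left a3.1 hh0.le
      have a7 := mul_le_mul_of_nonneg_left a3.2 hh0.le
      rw [abs_le, hK']
      constructor <;> nlinarith [a4.1, a4.2, a5.1, a5.2])
  have t2 : (N : ℝ) * (h * (ε / 8 / T) + K' * h ^ 2) ≤ ε / 4 := by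
    have : (N : ℝ) * (h * (ε / 8 / T) + K' * h ^ 2) = ε / 8 + T * K' * h := by
      rw [mul_add, ← mul_assoc, hNh, sq, ← hNh]; field_simp
    rw [this]; linarith
  simp only [hw0, hwN] at t1
  have f1 := ld_F_far hE hs0 hs1 c E M hM2
  have f2 := ld_B_far hT (q := q) hs0 hs1 π E M hM2
  have f3 : 2 * A / M + (2 * A + (q + 1)) / M = (4 * A + (q + 1)) / M := by ring
  rw [← hA] at f1 f2
  have g1 := abs_le.mp (t1.trans t2)
  have g2 := abs_le.mp f1
  have g3 := abs_le.mp f2
  rw [abs_le]
  constructor <;> linarith [g1.1, g1.2, g2.1, g2.2, g3.1, g3.2]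

end Crest.Agent.R166
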