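import Crest.Agent.R166.Iface

/-!
# Row 166, block LD: elementary tools
-/

set_option autoImplicit false

open MeasureTheory ProbabilityTheory Filter Topology Complex
open scoped ENNReal NNReal BigOperators Matrix

noncomputable section

namespace Crest.Agent.R166

/-- second order expansion of `log ‖a + x‖` -/
theorem ld_log_expand (a x : ℂ) (ha : a ≠ 0) (hx : ‖x‖ ≤ ‖a‖ / 2) :
    |Real.log ‖a + x‖ - Real.log ‖a‖ - (x / a).re| ≤ ‖x‖ ^ 2 / ‖a‖ ^ 2 := by
  have ha' : 0 < ‖a‖ := norm_pos_iff.mpr ha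
  set w := x / a with hw
  have hwn : ‖w‖ = ‖x‖ / ‖a‖ := by rw [hw, norm_div]
  have hw2 : ‖w‖ ≤ 1 / 2 := by
    rw [hwn, div_le_iff₀ ha']; linarith
  have hw1 : ‖w‖ < 1 := by linarith
  have h1 : a + x = a * (1 + w) := by rw [hw]; field_simp
  have h1w : (1 + w) ≠ 0 := by
    intro h
    have : w = -1 := by linear_combination h
    rw [this] at hw1; simp at hw1
  have h2 : Real.log ‖a + x‖ = Real.log ‖a‖ + Real.log ‖1 + w‖ := by
    rw [h1, norm_mul, Real.log_mul ha'.ne' (norm_ne_zero_iff.mpr h1w)]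
  have h3 := Complex.norm_log_one_add_sub_self_le hw1
  have h4 : |(Complex.log (1 + w) - w).re| ≤ ‖Complex.log (1 + w) - w‖ := Complex.abs_re_le_norm _
  have h5 : (Complex.log (1 + w) - w).re = Real.log ‖1 + w‖ - w.re := by
    rw [Complex.sub_re, Complex.log_re]
  have h6 : (1 - ‖w‖)⁻¹ ≤ 2 := by
    rw [inv_le_comm₀ (by linarith) (by norm_num)]; linarith
  have h7 : ‖w‖ ^ 2 * (1 - ‖w‖)⁻¹ / 2 ≤ ‖w‖ ^ 2 := by
    have := sq_nonneg ‖w‖
    nlinarith
  have h8 : ‖x‖ ^ 2 / ‖a‖ ^ 2 = ‖w‖ ^ 2 := by rw [hwn, div_pow]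
  rw [h2, h8]
  have : Real.log ‖a‖ + Real.log ‖1 + w‖ - Real.log ‖a‖ - w.re = Real.log ‖1 + w‖ - w.re := by ring
  rw [this, ← h5]
  linarith

/-- first order bound -/
theorem ld_log_close (a x : ℂ) (ha : a ≠ 0) (hx : ‖x‖ ≤ ‖a‖ / 2) :
    |Real.log ‖a + x‖ - Real.log ‖a‖| ≤ 2 * (‖x‖ / ‖a‖) := by
  have ha' : 0 < ‖a‖ := norm_pos_iff.mpr ha
  have h := ld_log_expand a x ha hx
  have h1 : |(x / a).re| ≤ ‖x‖ / ‖a‖ := by
    rw [← norm_div]; exact Complex.abs_re_le_norm _
  have h2 : ‖x‖ / ‖a‖ ≤ 1 / 2 := by rw [div_le_iff₀ ha']; linarith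
  have h3 : ‖x‖ ^ 2 / ‖a‖ ^ 2 = (‖x‖ / ‖a‖) ^ 2 := by rw [div_pow]
  have h4 : 0 ≤ ‖x‖ / ‖a‖ := by positivity
  rw [h3] at h
  have h5 := abs_le.mp h
  have h6 := abs_le.mp h1
  rw [abs_le]
  constructor <;> nlinarith

instance ld_prob_env (q : ℕ) (π : Measure II) [IsProbabilityMeasure π] :
    IsProbabilityMeasure (envLaw q π) := by
  unfold envLaw; infer_instance

instance ld_prob_star (q : ℕ) (π : Measure II) [IsProbabilityMeasure π] :
    IsProbabilityMeasure (starLaw q π) := by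
  unfold starLaw; infer_instance

instance ld_prob_edge (q : ℕ) (π : Measure II) [IsProbabilityMeasure π] :
    IsProbabilityMeasure (edgeLaw q π) := by
  unfold edgeLaw; infer_instance

theorem ld_integrable {X : Type} [TopologicalSpace X] [CompactSpace X] [MeasurableSpace X]
    [OpensMeasurableSpace X] [T2Space X] (μ : Measure X) [IsFiniteMeasure μ] {f : X → ℝ}
    (hf : Continuous f) : Integrable f μ := by
  have := hf.continuousOn.integrableOn_compact (μ := μ) (isCompact_univ (X := X))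
  rwa [integrableOn_univ] at this

/-- the integral of a function bounded by `C` over a probability measure -/
theorem ld_abs_integral_le {X : Type} [MeasurableSpace X] (μ : Measure X) [IsProbabilityMeasure μ]
    {f : X → ℝ} {C : ℝ} (hf : ∀ x, |f x| ≤ C) : |∫ x, f x ∂μ| ≤ C := by
  have h := norm_integral_le_of_norm_le_const (μ := μ) (f := f) (C := C)
    (Eventually.of_forall fun x => by simpa using hf x)
  simpa using h

/-! ## `Whp` calculus -/

theorem ld_whp_mono {q : ℕ} {π : Measure II} {p p' : ∀ n : ℕ, Cfg (Fin n) q → Prop}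
    (h : Whp q π p) (hp : ∀ᶠ n in atTop, ∀ c, IsSimple c.1 → p n c → p' n c) : Whp q π p' := by
  unfold Whp at h ⊢
  refine tendsto_of_tendsto_of_tendsto_of_le_of_le' tendsto_const_nhds h
    (Eventually.of_forall fun _ => zero_le) ?_
  filter_upwards [hp] with n hn
  refine measure_mono fun c hc => ⟨hc.1, fun h' => hc.2 (hn c hc.1 h')⟩

theorem ld_whp_and {q : ℕ} {π : Measure II} {p p' : ∀ n : ℕ, Cfg (Fin n) q → Prop}
    (h : Whp q π p) (h' : Whp q π p') : Whp q π fun n c => p n c ∧ p' n c := by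
  unfold Whp at h h' ⊢
  have := h.add h'
  rw [add_zero] at this
  refine tendsto_of_tendsto_of_tendsto_of_le_of_le tendsto_const_nhds this
    (fun _ => zero_le) fun n => ?_
  refine le_trans (measure_mono ?_) (measure_union_le _ _)
  intro c hc
  by_cases h1 : p n c
  · right; exact ⟨hc.1, fun h2 => hc.2 ⟨h1, h2⟩⟩
  · left; exact ⟨hc.1, h1⟩

theorem ld_whp_true {q : ℕ} {π : Measure II} : Whp q π fun _ _ => True := by
  unfold Whp
  simp

theorem ld_whp_all {q : ℕ} {π : Measure II} {p : ℕ → ∀ n : ℕ, Cfg (Fin n) q → Prop} (N : ℕ)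
    (h : ∀ k, k < N → Whp q π (p k)) : Whp q π fun n c => ∀ k, k < N → p k n c := by
  induction N with
  | zero => exact ld_whp_mono ld_whp_true (Eventually.of_forall fun n c _ _ k hk => by omega)
  | succ N ih =>
    have h1 := ld_whp_and (ih fun k hk => h k (by omega)) (h N (by omega))
    refine ld_whp_mono h1 (Eventually.of_forall fun n c _ hc k hk => ?_)
    rcases Nat.lt_succ_iff_lt_or_eq.mp hk with h2 | h2
    · exact hc.1 k h2
    · subst h2; exact hc.2

/-- `Whp` from bounds with every small probability -/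
theorem ld_whp_of_small {q : ℕ} {π : Measure II} {p : ∀ n : ℕ, Cfg (Fin n) q → Prop}
    (h : ∀ ε : ℝ, 0 < ε → ∀ᶠ n in atTop,
      cfgLaw (Fin n) q π {c | IsSimple c.1 ∧ ¬ p n c} ≤ ENNReal.ofReal ε) : Whp q π p := by
  unfold Whp
  rw [ENNReal.tendsto_nhds_zero]
  intro ε hε
  by_cases hT : ε = ⊤
  · exact Eventually.of_forall fun _ => by simp [hT]
  · have := h ε.toReal (ENNReal.toReal_pos hε.ne' hT)
    rwa [ENNReal.ofReal_toReal hT] at this

/-- telescoping along a grid -/
theorem ld_telescope (f g : ℕ → ℝ) (N : ℕ) (δ : ℝ)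
    (h : ∀ k, k < N → |(f (k + 1) - f k) - (g (k + 1) - g k)| ≤ δ) :
    |(f N - f 0) - (g N - g 0)| ≤ N * δ := by
  induction N with
  | zero => simp
  | succ N ih =>
    have h1 := ih fun k hk => h k (by omega)
    have h2 := h N (by omega)
    have h3 := abs_le.mp h1
    have h4 := abs_le.mp h2
    push_cast
    rw [abs_le]
    constructor <;> linarith

end Crest.Agent.R166
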