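import Crest.Agent.R166.LD.Basic

/-!
# Row 166, block LD: determinants of `Im Γ` on stars and edges
-/

set_option autoImplicit false

open MeasureTheory ProbabilityTheory Filter Topology Complex
open scoped ENNReal NNReal BigOperators Matrix ComplexConjugate

noncomputable section

namespace Crest.Agent.R166

/-- if `N Γ = 1` and `Im N = -diag Δ` then `det Im Γ = |det Γ|² ∏ Δ` -/
theorem ld_det_im {ι : Type} [Fintype ι] [DecidableEq ι] (N Γ : Matrix ι ι ℂ) (Δ : ι → ℝ)
    (h : N * Γ = 1) (hN : ∀ a b, (N a b).im = if a = b then -Δ a else 0) :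
    (imM Γ).det = ‖Γ.det‖ ^ 2 * ∏ a, Δ a := by
  have h' : Γ * N = 1 := mul_eq_one_comm.mp h
  set Γb := Γ.map (starRingEnd ℂ) with hΓb
  set Nb := N.map (starRingEnd ℂ) with hNb
  have hb : Γb * Nb = 1 := by
    rw [hΓb, hNb, ← Matrix.map_mul, h']
    exact Matrix.map_one _ (map_zero _) (map_one _)
  set D : Matrix ι ι ℂ := Matrix.diagonal fun a => (Δ a : ℂ) with hD
  have hdiff : Nb - N = (2 * I) • D := by
    ext a b
    simp only [hNb, hD, Matrix.sub_apply, Matrix.map_apply, Matrix.smul_apply, smul_eq_mul,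
      Matrix.diagonal_apply]
    have := hN a b
    apply Complex.ext
    · split_ifs <;> simp
    · split_ifs with hab
      · simp only [hab, if_true] at this
        simp [hab, this]; ring
      · simp only [hab, if_false] at this
        simp [this]
  have hIm : (imM Γ).map (fun x : ℝ => (x : ℂ)) = Γb * D * Γ := by
    have h1 : Γ - Γb = Γb * (Nb - N) * Γ := by
      rw [Matrix.mul_sub, Matrix.sub_mul, hb, Matrix.mul_assoc, h]; simp
    rw [hdiff, Matrix.mul_smul, Matrix.smul_mul] at h1
    ext a b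
    have h2 := congrFun (congrFun h1 a) b
    simp only [Matrix.sub_apply, hΓb, Matrix.map_apply, Matrix.smul_apply, smul_eq_mul] at h2
    rw [Complex.sub_conj] at h2
    simp only [imM, Matrix.map_apply]
    have h3 : (2 * I : ℂ) ≠ 0 := mul_ne_zero two_ne_zero I_ne_zero
    apply mul_left_cancel₀ h3
    rw [← h2]; push_cast; ring
  have hdet := congrArg Matrix.det hIm
  rw [Matrix.det_mul, Matrix.det_mul, hD, Matrix.det_diagonal] at hdet
  have h4 : ((imM Γ).map (fun x : ℝ => (x : ℂ))).det = ((imM Γ).det : ℂ) := by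
    exact (Complex.ofRealHom.map_det (imM Γ)).symm
  have h5 : Γb.det = conj Γ.det := by
    have := ((starRingEnd ℂ).map_det Γ).symm
    simpa [RingHom.mapMatrix_apply, hΓb] using this
  rw [h4, h5] at hdet
  have h6 : ((‖Γ.det‖ ^ 2 * ∏ a, Δ a : ℝ) : ℂ) = conj Γ.det * (∏ a, (Δ a : ℂ)) * Γ.det := by
    push_cast
    rw [← Complex.conj_mul']; ring
  exact_mod_cast hdet.trans h6.symm

theorem ld_W_im {k : ℕ} (s : ℝ) (z : ℂ) (a : II) (m : Fin k → ℂ) (hm : ∀ j, 0 < (m j).im) :
    z.im ≤ (z - s * (a : ℝ) + ∑ j, m j).im := by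
  have : 0 ≤ ∑ j, (m j).im := Finset.sum_nonneg fun j _ => (hm j).le
  simp [Complex.im_sum]; linarith

theorem ld_W_ne {k : ℕ} (s : ℝ) (z : ℂ) (hz : 0 < z.im) (a : II) (m : Fin k → ℂ)
    (hm : ∀ j, 0 < (m j).im) : z - s * (a : ℝ) + ∑ j, m j ≠ 0 := by
  intro h
  have := ld_W_im s z a m hm
  rw [h] at this; simp at this; linarith

theorem ld_det_GamS {q : ℕ} (s : ℝ) (z : ℂ) (a : II) (m : Fin (q + 1) → ℂ) :
    (GamS s z a m).det = Psi s z a m * ∏ j, m j := by
  classical
  set g := Psi s z a m with hg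
  let e : SI q → ℂ := fun o => if o = none then 1 else 0
  let w : SI q → ℂ := fun o => match o with | none => 0 | some j => -m j
  let T : Matrix (SI q) (SI q) ℂ :=
    1 + Matrix.replicateCol Unit e * Matrix.replicateRow Unit w
  let D : Matrix (SI q) (SI q) ℂ :=
    Matrix.diagonal fun o => match o with | none => g | some j => m j
  have hT : ∀ a b, T a b = (if a = b then 1 else 0) + e a * w b := by
    intro a b
    simp [T, Matrix.mul_apply, Matrix.one_apply]
  have hdT : T.det = 1 := by
    simp only [T]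
    rw [Matrix.det_one_add_replicateCol_mul_replicateRow]
    simp [dotProduct, e, w]
  have hfac : GamS s z a m = Tᵀ * D * T := by
    ext x y
    simp only [Matrix.mul_apply, Matrix.transpose_apply, D, Matrix.diagonal_apply, hT]
    rcases x with _ | i <;> rcases y with _ | j <;>
      simp [GamS, Fintype.sum_option, e, w, ← hg, mul_comm]
    · by_cases hij : i = j
      · subst hij; simp; ring
      · have : ¬ j = i := fun h => hij h.symm
        simp [hij, this]; ring
  rw [hfac, Matrix.det_mul, Matrix.det_mul, Matrix.det_transpose, hdT, Matrix.det_diagonal]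
  simp [Fintype.prod_option]

theorem ld_det_star {q : ℕ} (s : ℝ) (z : ℂ) (hz : 0 < z.im) (a : II) (m : Fin (q + 1) → ℂ)
    (hm : ∀ j, 0 < (m j).im) :
    Real.log (imM (GamS s z a m)).det =
      Real.log z.im + ∑ j, Real.log (m j).im - 2 * Real.log ‖z - s * (a : ℝ) + ∑ j, m j‖ := by
  classical
  set W := z - s * (a : ℝ) + ∑ j, m j with hW
  have hWne : W ≠ 0 := ld_W_ne s z hz a m hm
  have hmne : ∀ j, m j ≠ 0 := fun j h => by have := hm j; rw [h] at this; simp at this
  have hg : Psi s z a m = -W⁻¹ := rfl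
  let N : Matrix (SI q) (SI q) ℂ := fun x y => match x, y with
    | none, none => s * (a : ℝ) - z
    | none, some _ => 1
    | some _, none => 1
    | some i, some j => if i = j then (m i)⁻¹ else 0
  let Δ : SI q → ℝ := fun x => match x with
    | none => z.im
    | some i => (m i).im / ‖m i‖ ^ 2
  have hsum : ∑ j, m j = W - z + s * (a : ℝ) := by rw [hW]; ring
  have hNΓ : N * GamS s z a m = 1 := by
    ext x y
    rcases x with _ | i <;> rcases y with _ | j
    · simp only [Matrix.mul_apply, Fintype.sum_option, N, GamS, hg, one_mul, Matrix.one_apply_eq]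
      rw [Finset.sum_neg_distrib, ← Finset.sum_mul, hsum]
      field_simp; ring
    · simp only [Matrix.mul_apply, Fintype.sum_option, N, GamS, hg, one_mul]
      rw [Finset.sum_add_distrib, ← Finset.sum_mul, ← Finset.sum_mul, hsum]
      simp only [Finset.sum_ite_eq', Finset.mem_univ, if_true]
      rw [Matrix.one_apply_ne (by simp)]
      field_simp; ring
    · simp only [Matrix.mul_apply, Fintype.sum_option, N, GamS, hg, one_mul, ite_mul, zero_mul,
        Finset.sum_ite_eq, Finset.mem_univ, if_true]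
      rw [Matrix.one_apply_ne (by simp)]
      have := hmne i
      field_simp; ring
    · simp only [Matrix.mul_apply, Fintype.sum_option, N, GamS, hg, one_mul, ite_mul, zero_mul,
        Finset.sum_ite_eq, Finset.mem_univ, if_true, Matrix.one_apply, Option.some.injEq]
      have := hmne i
      split_ifs with hij
      · subst hij; field_simp; ring
      · field_simp; ring
  have hN : ∀ x y, (N x y).im = if x = y then -Δ x else 0 := by
    intro x y
    rcases x with _ | i <;> rcases y with _ | j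
    · simp [N, Δ]
    · simp [N]
    · simp [N]
    · simp only [N, Δ, Option.some.injEq]
      split_ifs with hij
      · rw [Complex.inv_im, Complex.normSq_eq_norm_sq]; ring
      · simp
  rw [ld_det_im N _ Δ hNΓ hN, ld_det_GamS, hg, Fintype.prod_option]
  have hnm : ∀ j, 0 < ‖m j‖ := fun j => norm_pos_iff.mpr (hmne j)
  have hWp : 0 < ‖W‖ := norm_pos_iff.mpr hWne
  have key : ‖-W⁻¹ * ∏ j, m j‖ ^ 2 * (Δ none * ∏ j, Δ (some j)) =
      z.im * (∏ j, (m j).im) / ‖W‖ ^ 2 := by
    simp only [Δ, norm_mul, norm_neg, norm_inv, norm_prod, Finset.prod_div_distrib,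
      Finset.prod_pow]
    have : 0 < ∏ j, ‖m j‖ := Finset.prod_pos fun j _ => hnm j
    field_simp
  rw [key, Real.log_div (by have := Finset.prod_pos (s := Finset.univ) fun j _ => hm j; positivity)
    (by positivity), Real.log_mul hz.ne' (Finset.prod_pos fun j _ => hm j).ne',
    Real.log_prod (fun j _ => (hm j).ne'), Real.log_pow]
  push_cast; ring

theorem ld_D_lower (m' m : ℂ) (c : ℝ) (hc : 0 < c) (hm' : c ≤ m'.im) (hm : c ≤ m.im) :
    c ^ 2 ≤ ‖1 - m' * m‖ := by
  have hmne : m ≠ 0 := fun h => by rw [h] at hm; simp at hm; linarith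
  have h1 : 1 - m' * m = m * (m⁻¹ - m') := by field_simp
  have h2 : c ≤ ‖m‖ := hm.trans ((le_abs_self _).trans (Complex.abs_im_le_norm m))
  have h3 : (m⁻¹ - m').im ≤ -c := by
    rw [Complex.sub_im, Complex.inv_im]
    have : 0 ≤ m.im / Complex.normSq m := div_nonneg (by linarith) (Complex.normSq_nonneg m)
    rw [neg_div]; linarith
  have h4 : c ≤ ‖m⁻¹ - m'‖ := by
    have := Complex.abs_im_le_norm (m⁻¹ - m')
    have h5 := neg_abs_le (m⁻¹ - m').im
    linarith
  rw [h1, norm_mul, sq]
  exact mul_le_mul h2 h4 hc.le (norm_nonneg _)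

theorem ld_D_ne (m' m : ℂ) (hm' : 0 < m'.im) (hm : 0 < m.im) : 1 - m' * m ≠ 0 := by
  have := ld_D_lower m' m (min m'.im m.im) (lt_min hm' hm) (min_le_left _ _) (min_le_right _ _)
  intro h
  rw [h, norm_zero] at this
  have h2 : 0 < (min m'.im m.im) ^ 2 := pow_pos (lt_min hm' hm) 2
  linarith

theorem ld_det_edge (m' m : ℂ) (hm' : 0 < m'.im) (hm : 0 < m.im) :
    Real.log (imM (GamE m' m)).det =
      Real.log m'.im + Real.log m.im - 2 * Real.log ‖1 - m' * m‖ := by
  have hD := ld_D_ne m' m hm' hm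
  have h1 : m' ≠ 0 := fun h => by rw [h] at hm'; simp at hm'
  have h2 : m ≠ 0 := fun h => by rw [h] at hm; simp at hm
  let N : Matrix (Fin 2) (Fin 2) ℂ := !![m'⁻¹, 1; 1, m⁻¹]
  let Δ : Fin 2 → ℝ := ![m'.im / ‖m'‖ ^ 2, m.im / ‖m‖ ^ 2]
  have hNΓ : N * GamE m' m = 1 := by
    ext x y
    fin_cases x <;> fin_cases y <;>
      simp [N, GamE, Matrix.mul_apply, Fin.sum_univ_two] <;> field_simp <;> ring
  have hN : ∀ x y, (N x y).im = if x = y then -Δ x else 0 := by
    intro x y
    fin_cases x <;> fin_cases y <;>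
      simp [N, Δ, Complex.inv_im, Complex.normSq_eq_norm_sq, neg_div]
  rw [ld_det_im N _ Δ hNΓ hN]
  have hdet : (GamE m' m).det = m' * m / (1 - m' * m) := by
    rw [Matrix.det_fin_two]
    simp [GamE]; field_simp
  have hn1 : 0 < ‖m'‖ := norm_pos_iff.mpr h1
  have hn2 : 0 < ‖m‖ := norm_pos_iff.mpr h2
  have hn3 : 0 < ‖1 - m' * m‖ := norm_pos_iff.mpr hD
  have key : ‖(GamE m' m).det‖ ^ 2 * ∏ a, Δ a = m'.im * m.im / ‖1 - m' * m‖ ^ 2 := by
    rw [hdet, Fin.prod_univ_two]
    simp only [Δ, norm_div, norm_mul, Matrix.cons_val_zero, Matrix.cons_val_one]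
    field_simp
  rw [key, Real.log_div (by positivity) (by positivity), Real.log_mul hm'.ne' hm.ne', Real.log_pow]
  push_cast; ring

end Crest.Agent.R166
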