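import Crest.Agent.R166.LD.Tree

/-!
# Row 166, block LD: the increment of the Bethe free energy
-/

set_option autoImplicit false

open MeasureTheory ProbabilityTheory Filter Topology Complex
open scoped ENNReal NNReal BigOperators Matrix ComplexConjugate

noncomputable section

namespace Crest.Agent.R166

/-- the linear term on an edge -/
def ldP {q : ℕ} (s : ℝ) (z z' : ℂ) (x : EEnv q) : ℝ :=
  (mT s z x.1 / ldD s z x * (mT s z' x.2 - mT s z x.2)).re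

theorem ld_step_star {q : ℕ} (W W' : ℂ) (δ : Fin (q + 1) → ℂ) (η h C : ℝ) (hη : 0 < η)
    (hh : 0 ≤ h) (hW : η ≤ ‖W‖) (hW' : W' = W + (h * I + ∑ j, δ j))
    (hδ : ∀ j, ‖δ j‖ ≤ C * h) (hsmall : (1 + (q + 1) * C) * h ≤ η / 2) :
    |Real.log ‖W'‖ - Real.log ‖W‖ - h * (-W⁻¹).im + ∑ j, (-W⁻¹ * δ j).re| ≤
      (1 + (q + 1) * C) ^ 2 / η ^ 2 * h ^ 2 := by
  have hW0 : W ≠ 0 := norm_pos_iff.mp (hη.trans_le hW)
  set x : ℂ := h * I + ∑ j, δ j with hx
  have hxn : ‖x‖ ≤ (1 + (q + 1) * C) * h := by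
    have a1 : ‖(h * I : ℂ)‖ = h := by simp [abs_of_nonneg hh]
    have a2 : ‖∑ j, δ j‖ ≤ (q + 1) * (C * h) := by
      refine (norm_sum_le _ _).trans ((Finset.sum_le_sum fun j _ => hδ j).trans ?_)
      simp
    calc ‖x‖ ≤ ‖(h * I : ℂ)‖ + ‖∑ j, δ j‖ := norm_add_le _ _
      _ ≤ _ := by rw [a1]; linarith
  have h1 := ld_log_expand W x hW0 (by linarith)
  have h2 : (x / W).re = h * (-W⁻¹).im - ∑ j, (-W⁻¹ * δ j).re := by
    rw [← Complex.re_sum, ← Finset.mul_sum, hx, div_eq_mul_inv]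
    simp; ring
  rw [← hW', h2] at h1
  have h3 : ‖x‖ ^ 2 / ‖W‖ ^ 2 ≤ (1 + (q + 1) * C) ^ 2 / η ^ 2 * h ^ 2 := by
    rw [div_mul_eq_mul_div, ← mul_pow]
    gcongr
  refine le_trans (le_of_eq ?_) (h1.trans h3)
  congr 1; ring

theorem ld_step_edge (a b a' b' : ℂ) (η c h C : ℝ) (hη : 0 < η) (hc : 0 < c) (hh : 0 ≤ h)
    (hh1 : h ≤ 1) (hC : 0 ≤ C) (ha : ‖a‖ ≤ η⁻¹) (hb : ‖b‖ ≤ η⁻¹) (hD : c ^ 2 ≤ ‖1 - a * b‖)
    (hda : ‖a' - a‖ ≤ C * h) (hdb : ‖b' - b‖ ≤ C * h)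
    (hsmall : (2 * C / η + C ^ 2) * h ≤ c ^ 2 / 2) :
    |Real.log ‖1 - a' * b'‖ - Real.log ‖1 - a * b‖ + (a / (1 - a * b) * (b' - b)).re +
        (b / (1 - b * a) * (a' - a)).re| ≤
      ((2 * C / η + C ^ 2) ^ 2 / (c ^ 2) ^ 2 + C ^ 2 / c ^ 2) * h ^ 2 := by
  have hc2 : 0 < c ^ 2 := by positivity
  have hD0 : 1 - a * b ≠ 0 := norm_pos_iff.mp (hc2.trans_le hD)
  set y : ℂ := -((a' - a) * b + a * (b' - b) + (a' - a) * (b' - b)) with hy
  have hηi : 0 < η⁻¹ := inv_pos.mpr hη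
  have hCh : 0 ≤ C * h := mul_nonneg hC hh
  have b3 : ‖(a' - a) * (b' - b)‖ ≤ C ^ 2 * h ^ 2 := by
    rw [norm_mul]
    calc _ ≤ (C * h) * (C * h) := mul_le_mul hda hdb (norm_nonneg _) hCh
      _ = _ := by ring
  have hyn : ‖y‖ ≤ (2 * C / η + C ^ 2) * h := by
    have b1 : ‖(a' - a) * b‖ ≤ C * h * η⁻¹ := by
      rw [norm_mul]; exact mul_le_mul hda hb (norm_nonneg _) hCh
    have b2 : ‖a * (b' - b)‖ ≤ η⁻¹ * (C * h) := by
      rw [norm_mul]; exact mul_le_mul ha hdb (norm_nonneg _) hηi.le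
    have b4 : C ^ 2 * h ^ 2 ≤ C ^ 2 * h := by
      have : h ^ 2 ≤ h := by nlinarith
      gcongr
    rw [hy, norm_neg]
    calc _ ≤ ‖(a' - a) * b‖ + ‖a * (b' - b)‖ + ‖(a' - a) * (b' - b)‖ := norm_add₃_le
      _ ≤ C * h * η⁻¹ + η⁻¹ * (C * h) + C ^ 2 * h := by linarith
      _ = _ := by field_simp; ring
  have h1 := ld_log_expand (1 - a * b) y hD0 (by linarith)
  have h2 : 1 - a * b + y = 1 - a' * b' := by rw [hy]; ring
  have h3 : y / (1 - a * b) = -(a / (1 - a * b) * (b' - b)) - b / (1 - b * a) * (a' - a) -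
      (a' - a) * (b' - b) / (1 - a * b) := by
    rw [hy, mul_comm b a]; field_simp; ring
  rw [h2, h3] at h1
  have h4 : ‖y‖ ^ 2 / ‖1 - a * b‖ ^ 2 ≤ (2 * C / η + C ^ 2) ^ 2 / (c ^ 2) ^ 2 * h ^ 2 := by
    rw [div_mul_eq_mul_div, ← mul_pow]
    gcongr
  have h5 : |((a' - a) * (b' - b) / (1 - a * b)).re| ≤ C ^ 2 / c ^ 2 * h ^ 2 := by
    refine (Complex.abs_re_le_norm _).trans ?_
    rw [norm_div, div_mul_eq_mul_div]
    gcongr
  simp only [Complex.sub_re, Complex.neg_re] at h1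
  have h6 := abs_le.mp (h1.trans h4)
  have h7 := abs_le.mp h5
  rw [abs_le]
  constructor <;> nlinarith [h6.1, h6.2, h7.1, h7.2]

theorem ld_B_step (hT : StT0) (hEnv : StEnv) {q : ℕ} {s : ℝ} (hs0 : 0 ≤ s) (hs1 : s ≤ 1)
    (π : Measure II) [IsProbabilityMeasure π] (η M : ℝ) (hη : 0 < η) :
    ∃ K h₀ : ℝ, 0 < h₀ ∧ ∀ (z : ℂ) (h : ℝ), η ≤ z.im → 0 ≤ h → h ≤ h₀ → ‖z‖ ≤ M →
      ‖z + h * I‖ ≤ M → |ldB q π s (z + h * I) - ldB q π s z - h * ldG q π s z| ≤ K * h ^ 2 := by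
  obtain ⟨c, C₀, hc, hL⟩ := (hT q s hs0 hs1).2 η M hη
  set C := max C₀ 0 with hCdef
  have hC : 0 ≤ C := le_max_right _ _
  have hq : (0 : ℝ) ≤ q := Nat.cast_nonneg q
  set K₁ : ℝ := 1 + (q + 1) * C with hK₁
  set K₂ : ℝ := 2 * C / η + C ^ 2 with hK₂
  have hK₁0 : 0 < K₁ := by positivity
  have hK₂0 : 0 ≤ K₂ := by positivity
  refine ⟨K₁ ^ 2 / η ^ 2 + (q + 1) / 2 * (K₂ ^ 2 / (c ^ 2) ^ 2 + C ^ 2 / c ^ 2),
    min 1 (min (η / 2 / K₁) (c ^ 2 / 2 / (K₂ + 1))), by positivity, ?_⟩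
  intro z h hz hh hh0 hzM hz'M
  set z' : ℂ := z + h * I with hz'
  have hz'i : z'.im = z.im + h := by simp [hz']
  have hz0 : 0 < z.im := hη.trans_le hz
  have hz'η : η ≤ z'.im := by rw [hz'i]; linarith
  have hz'0 : 0 < z'.im := hη.trans_le hz'η
  have hh1 : h ≤ 1 := hh0.trans (min_le_left _ _)
  have hh2 : K₁ * h ≤ η / 2 := by
    have := hh0.trans ((min_le_right _ _).trans (min_le_left _ _))
    rwa [le_div_iff₀' hK₁0] at this
  have hh3 : K₂ * h ≤ c ^ 2 / 2 := by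
    have := hh0.trans ((min_le_right _ _).trans (min_le_right _ _))
    rw [le_div_iff₀' (by positivity)] at this
    nlinarith
  have hδ : ∀ β : Env q, ‖mT s z' β - mT s z β‖ ≤ C * h := by
    intro β
    have := (hL z' z hz'η hz hz'M hzM β).2
    have h1 : ‖z' - z‖ = h := by simp [hz', abs_of_nonneg hh]
    rw [h1] at this
    exact this.trans (mul_le_mul_of_nonneg_right (le_max_left _ _) hh)
  have hcim : ∀ β : Env q, c ≤ (mT s z β).im := fun β => (hL z z hz hz hzM hzM β).1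
  have hnorm : ∀ β : Env q, ‖mT s z β‖ ≤ η⁻¹ := fun β =>
    (ld_norm_mT hT hs0 hs1 hz0 β).trans (inv_anti₀ hη hz)
  have hcm := ld_cont_mT hT hs0 hs1 (q := q) hz0
  have hcm' := ld_cont_mT hT hs0 hs1 (q := q) hz'0
  have hP : Continuous (ldP (q := q) s z z') := by
    unfold ldP
    refine Complex.continuous_re.comp (Continuous.mul (Continuous.div (by fun_prop)
      (ld_cont_D hT hs0 hs1 hz0) (ld_D_ne' hT hs0 hs1 hz0)) (by fun_prop))
  have hS : ∀ e : SEnv q, |Real.log ‖ldW s z' e‖ - Real.log ‖ldW s z e‖ -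
      h * (GS s z e none none).im + ∑ i, ldP s z z' (nearV e i, e.2 i)| ≤
      K₁ ^ 2 / η ^ 2 * h ^ 2 := by
    intro e
    have := ld_step_star (ldW s z e) (ldW s z' e) (fun j => mT s z' (e.2 j) - mT s z (e.2 j))
      η h C hη hh (hz.trans (ld_W_norm hT hs0 hs1 hz0 e))
      (by unfold ldW; rw [Finset.sum_sub_distrib, hz']; ring) (fun j => hδ _) hh2
    have h2 : ∀ i, ldP s z z' (nearV e i, e.2 i) =
        (-(ldW s z e)⁻¹ * (mT s z' (e.2 i) - mT s z (e.2 i))).re := by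
      intro i
      unfold ldP
      rw [ld_near hT hs0 hs1 hz0]
    simp only [h2, ld_GS_none]
    exact this
  have hEd : ∀ x : EEnv q, |Real.log ‖ldD s z' x‖ - Real.log ‖ldD s z x‖ + ldP s z z' x +
      ldP s z z' (x.2, x.1)| ≤ (K₂ ^ 2 / (c ^ 2) ^ 2 + C ^ 2 / c ^ 2) * h ^ 2 := fun x =>
    ld_step_edge (mT s z x.1) (mT s z x.2) (mT s z' x.1) (mT s z' x.2) η c h C hη hc hh hh1 hC
      (hnorm _) (hnorm _) (ld_D_lower _ _ c hc (hcim _) (hcim _)) (hδ _) (hδ _) hh3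
  set X := ∫ x, ldP s z z' x ∂edgeLaw q π with hX
  have hPi : ∀ i : Fin (q + 1), Continuous fun e : SEnv q => ldP s z z' (nearV e i, e.2 i) :=
    fun i => hP.comp ((ld_cont_nearV i).prodMk (by fun_prop))
  have iW := ld_integrable (starLaw q π) (ld_cont_logW hT hs0 hs1 (q := q) hz0)
  have iW' := ld_integrable (starLaw q π) (ld_cont_logW hT hs0 hs1 (q := q) hz'0)
  have iD := ld_integrable (edgeLaw q π) (ld_cont_logD hT hs0 hs1 (q := q) hz0)
  have iD' := ld_integrable (edgeLaw q π) (ld_cont_logD hT hs0 hs1 (q := q) hz'0)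
  have ig := (ld_integrable (starLaw q π) (ld_cont_g hT hs0 hs1 (q := q) hz0)).const_mul h
  have iP := ld_integrable (edgeLaw q π) hP
  have iP' : Integrable (fun x : EEnv q => ldP s z z' (x.2, x.1)) (edgeLaw q π) :=
    ld_integrable _ (hP.comp (continuous_snd.prodMk continuous_fst))
  have iPs : Integrable (fun e : SEnv q => ∑ i, ldP s z z' (nearV e i, e.2 i)) (starLaw q π) :=
    ld_integrable _ (continuous_finsetSum _ fun i _ => hPi i)
  have h1 := ld_abs_integral_le (starLaw q π) hS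
  have iW2 : Integrable (fun e : SEnv q => Real.log ‖ldW s z' e‖ - Real.log ‖ldW s z e‖)
      (starLaw q π) := iW'.sub iW
  have iW3 : Integrable (fun e : SEnv q => Real.log ‖ldW s z' e‖ - Real.log ‖ldW s z e‖ -
      h * (GS s z e none none).im) (starLaw q π) := iW2.sub ig
  have iD2 : Integrable (fun e : EEnv q => Real.log ‖ldD s z' e‖ - Real.log ‖ldD s z e‖)
      (edgeLaw q π) := iD'.sub iD
  have iD3 : Integrable (fun e : EEnv q => Real.log ‖ldD s z' e‖ - Real.log ‖ldD s z e‖ +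
      ldP s z z' e) (edgeLaw q π) := iD2.add iP
  rw [integral_add iW3 iPs, integral_sub iW2 ig, integral_sub iW' iW,
    integral_const_mul, integral_finsetSum _ fun i _ => ld_integrable _ (hPi i)] at h1
  simp only [ld_star_edge hEnv π _ hP, ← hX, Finset.sum_const, Finset.card_univ, Fintype.card_fin,
    nsmul_eq_mul] at h1
  have h2 := ld_abs_integral_le (edgeLaw q π) hEd
  rw [integral_add iD3 iP', integral_add iD2 iP, integral_sub iD' iD,
    ld_edge_swap π (ldP s z z'), ← hX] at h2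
  unfold ldB ldG
  have h3 := abs_le.mp h1
  have h4 := abs_le.mp h2
  push_cast at h3
  have h5 : (0 : ℝ) ≤ (q + 1) / 2 := by positivity
  have h6 := mul_le_mul_of_nonneg_left h4.1 h5
  have h7 := mul_le_mul_of_nonneg_left h4.2 h5
  rw [abs_le]
  constructor <;> nlinarith [h3.1, h3.2]

end Crest.Agent.R166
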