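import Crest.Agent.R166.LD.Det

/-!
# Row 166, block LD: the Bethe free energy of the tree
-/

set_option autoImplicit false

open MeasureTheory ProbabilityTheory Filter Topology Complex
open scoped ENNReal NNReal BigOperators Matrix ComplexConjugate

noncomputable section

namespace Crest.Agent.R166

/-- denominator of the star Green function -/
def ldW {q : ℕ} (s : ℝ) (z : ℂ) (e : SEnv q) : ℂ := z - s * (e.1 : ℝ) + ∑ j, mT s z (e.2 j)

/-- denominator of the edge Green function -/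
def ldD {q : ℕ} (s : ℝ) (z : ℂ) (e : EEnv q) : ℂ := 1 - mT s z e.1 * mT s z e.2

/-- Bethe free energy -/
def ldB (q : ℕ) (π : Measure II) (s : ℝ) (z : ℂ) : ℝ :=
  ∫ e, Real.log ‖ldW s z e‖ ∂starLaw q π -
    ((q : ℝ) + 1) / 2 * ∫ e, Real.log ‖ldD s z e‖ ∂edgeLaw q π

/-- averaged imaginary part of the diagonal Green function -/
def ldG (q : ℕ) (π : Measure II) (s : ℝ) (z : ℂ) : ℝ := ∫ e, (GS s z e none none).im ∂starLaw q π

theorem ld_star_edge (hEnv : StEnv) {q : ℕ} (π : Measure II) [IsProbabilityMeasure π]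
    (i : Fin (q + 1)) {F : EEnv q → ℝ} (hF : Continuous F) :
    ∫ e, F (nearV e i, e.2 i) ∂starLaw q π = ∫ x, F x ∂edgeLaw q π := by
  have h := (hEnv q π).2.2.1 i
  rw [← h.map_eq, integral_map h.measurable.aemeasurable hF.aestronglyMeasurable]

theorem ld_edge_swap {q : ℕ} (π : Measure II) [IsProbabilityMeasure π] (F : EEnv q → ℝ) :
    ∫ x, F (x.2, x.1) ∂edgeLaw q π = ∫ x, F x ∂edgeLaw q π := by
  unfold edgeLaw
  exact integral_prod_swap F

theorem ld_cont_nearV {q : ℕ} (i : Fin (q + 1)) : Continuous fun e : SEnv q => nearV e i := by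
  refine continuous_pi fun l => ?_
  rcases l with _ | ⟨j, l⟩
  · exact continuous_fst
  · show Continuous fun e : SEnv q => e.2 (i + j.succ) l
    fun_prop

section
variable (hT : StT0) {q : ℕ} {s : ℝ} (hs0 : 0 ≤ s) (hs1 : s ≤ 1)
include hT hs0 hs1

theorem ld_cont_mT {z : ℂ} (hz : 0 < z.im) : Continuous (mT (q := q) s z) :=
  ((hT q s hs0 hs1).1 z hz).2.1

theorem ld_pos_mT {z : ℂ} (hz : 0 < z.im) (β : Env q) : 0 < (mT s z β).im :=
  (((hT q s hs0 hs1).1 z hz).2.2 β).1

theorem ld_norm_mT {z : ℂ} (hz : 0 < z.im) (β : Env q) : ‖mT s z β‖ ≤ z.im⁻¹ :=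
  (((hT q s hs0 hs1).1 z hz).2.2 β).2.1

theorem ld_cont_W {z : ℂ} (hz : 0 < z.im) : Continuous (ldW (q := q) s z) := by
  have := ld_cont_mT hT hs0 hs1 (q := q) hz
  unfold ldW
  fun_prop

theorem ld_cont_D {z : ℂ} (hz : 0 < z.im) : Continuous (ldD (q := q) s z) := by
  have := ld_cont_mT hT hs0 hs1 (q := q) hz
  unfold ldD
  fun_prop

theorem ld_W_norm {z : ℂ} (hz : 0 < z.im) (e : SEnv q) : z.im ≤ ‖ldW s z e‖ :=
  (ld_W_im s z e.1 _ fun _ => ld_pos_mT hT hs0 hs1 hz _).trans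
    ((le_abs_self _).trans (Complex.abs_im_le_norm _))

theorem ld_W_ne' {z : ℂ} (hz : 0 < z.im) (e : SEnv q) : ldW s z e ≠ 0 :=
  norm_pos_iff.mp (hz.trans_le (ld_W_norm hT hs0 hs1 hz e))

theorem ld_D_ne' {z : ℂ} (hz : 0 < z.im) (e : EEnv q) : ldD s z e ≠ 0 :=
  ld_D_ne _ _ (ld_pos_mT hT hs0 hs1 hz _) (ld_pos_mT hT hs0 hs1 hz _)

theorem ld_cont_logW {z : ℂ} (hz : 0 < z.im) :
    Continuous fun e : SEnv q => Real.log ‖ldW s z e‖ :=
  (ld_cont_W hT hs0 hs1 hz).norm.log fun e => norm_ne_zero_iff.mpr (ld_W_ne' hT hs0 hs1 hz e)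

theorem ld_cont_logD {z : ℂ} (hz : 0 < z.im) :
    Continuous fun e : EEnv q => Real.log ‖ldD s z e‖ :=
  (ld_cont_D hT hs0 hs1 hz).norm.log fun e => norm_ne_zero_iff.mpr (ld_D_ne' hT hs0 hs1 hz e)

omit hT hs0 hs1 in
theorem ld_GS_none (z : ℂ) (e : SEnv q) : GS s z e none none = -(ldW s z e)⁻¹ := rfl

theorem ld_cont_g {z : ℂ} (hz : 0 < z.im) :
    Continuous fun e : SEnv q => (GS s z e none none).im := by
  simp only [ld_GS_none]
  exact Complex.continuous_im.comp
    ((ld_cont_W hT hs0 hs1 hz).inv₀ (ld_W_ne' hT hs0 hs1 hz)).neg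

theorem ld_norm_g {z : ℂ} (hz : 0 < z.im) (e : SEnv q) : ‖GS s z e none none‖ ≤ z.im⁻¹ := by
  rw [ld_GS_none, norm_neg, norm_inv]
  exact inv_anti₀ hz (ld_W_norm hT hs0 hs1 hz e)

/-- the near cavity function of an edge of a star -/
theorem ld_near {z : ℂ} (hz : 0 < z.im) (e : SEnv q) (i : Fin (q + 1)) :
    mT s z (nearV e i) / ldD s z (nearV e i, e.2 i) = -(ldW s z e)⁻¹ := by
  have h1 := (((hT q s hs0 hs1).1 z hz).2.2 (nearV e i)).2.2
  have h2 : ∑ k, mT s z (e.2 k) = mT s z (e.2 i) + ∑ j : Fin q, mT s z (e.2 (i + j.succ)) := by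
    rw [← Equiv.sum_comp (Equiv.addLeft i) fun k => mT s z (e.2 k), Fin.sum_univ_succ]
    simp
  have h3 : mT s z (nearV e i) = -(ldW s z e - mT s z (e.2 i))⁻¹ := by
    rw [h1]
    show -(z - s * (e.1 : ℝ) + ∑ j : Fin q, mT s z (e.2 (i + j.succ)))⁻¹ = _
    congr 2
    unfold ldW
    rw [h2]; ring
  have h4 : ldW s z e - mT s z (e.2 i) ≠ 0 := by
    intro h
    have := ld_pos_mT hT hs0 hs1 hz (nearV e i)
    rw [h3, h] at this; simp at this
  have h5 := ld_W_ne' hT hs0 hs1 hz e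
  have h6 := ld_D_ne' hT hs0 hs1 hz (nearV e i, e.2 i)
  unfold ldD at h6 ⊢
  simp only at h6 ⊢
  rw [div_eq_iff h6, h3]
  field_simp
  ring

theorem ld_hBethe (hEnv : StEnv) (π : Measure II) [IsProbabilityMeasure π] {z : ℂ}
    (hz : 0 < z.im) : hBethe q π s z = Real.log z.im - 2 * ldB q π s z := by
  have hc := ld_cont_mT hT hs0 hs1 (q := q) hz
  have hpos := ld_pos_mT hT hs0 hs1 (q := q) hz
  have hL : Continuous fun β : Env q => Real.log (mT s z β).im :=
    (Complex.continuous_im.comp hc).log fun β => (hpos β).ne'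
  set L := ∫ x, Real.log (mT s z x.2).im ∂edgeLaw q π with hLdef
  have hS : ∫ e, Real.log (imM (GS s z e)).det ∂starLaw q π =
      Real.log z.im + ((q : ℝ) + 1) * L - 2 * ∫ e, Real.log ‖ldW s z e‖ ∂starLaw q π := by
    have h1 : ∀ e : SEnv q, Real.log (imM (GS s z e)).det =
        Real.log z.im + ∑ j, Real.log (mT s z (e.2 j)).im - 2 * Real.log ‖ldW s z e‖ :=
      fun e => ld_det_star s z hz e.1 _ fun j => hpos _
    simp only [h1]
    have hj : ∀ j : Fin (q + 1), Continuous fun e : SEnv q => Real.log (mT s z (e.2 j)).im :=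
      fun j => hL.comp (by fun_prop)
    rw [integral_sub, integral_add, integral_finsetSum, integral_const_mul]
    · have h2 : ∀ j : Fin (q + 1), ∫ e, Real.log (mT s z (e.2 j)).im ∂starLaw q π = L :=
        fun j => ld_star_edge hEnv π j (F := fun x => Real.log (mT s z x.2).im)
          (hL.comp continuous_snd)
      simp [h2]
    · exact fun j _ => ld_integrable _ (hj j)
    · exact integrable_const _
    · exact ld_integrable _ (continuous_finsetSum _ fun j _ => hj j)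
    · exact ld_integrable _ (continuous_const.add (continuous_finsetSum _ fun j _ => hj j))
    · exact ld_integrable _ (continuous_const.mul (ld_cont_logW hT hs0 hs1 hz))
  have hE : ∫ e, Real.log (imM (GE s z e)).det ∂edgeLaw q π =
      2 * L - 2 * ∫ e, Real.log ‖ldD s z e‖ ∂edgeLaw q π := by
    have h1 : ∀ e : EEnv q, Real.log (imM (GE s z e)).det =
        Real.log (mT s z e.1).im + Real.log (mT s z e.2).im - 2 * Real.log ‖ldD s z e‖ :=
      fun e => ld_det_edge _ _ (hpos _) (hpos _)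
    simp only [h1]
    rw [integral_sub, integral_add, integral_const_mul]
    · have h2 : ∫ e, Real.log (mT s z e.1).im ∂edgeLaw q π = L :=
        ld_edge_swap π fun x => Real.log (mT s z x.2).im
      rw [h2]; ring
    · exact ld_integrable _ (hL.comp continuous_fst)
    · exact ld_integrable _ (hL.comp continuous_snd)
    · exact ld_integrable _ ((hL.comp continuous_fst).add (hL.comp continuous_snd))
    · exact ld_integrable _ (continuous_const.mul (ld_cont_logD hT hs0 hs1 hz))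
  unfold hBethe ldB
  rw [hS, hE]; ring

/-- far from the real axis the free energy is `log M` -/
theorem ld_B_far (π : Measure II) [IsProbabilityMeasure π] (E M : ℝ)
    (hM : 2 * (|E| + q + 2) ≤ M) :
    |ldB q π s (E + M * I) - Real.log M| ≤ (2 * (|E| + q + 2) + (q + 1)) / M := by
  have hE := abs_nonneg E
  have hq : (0 : ℝ) ≤ q := Nat.cast_nonneg q
  have hM4 : 4 ≤ M := by linarith
  have hM0 : 0 < M := by linarith
  set z : ℂ := E + M * I with hz
  have hzi : z.im = M := by simp [hz]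
  have hz0 : 0 < z.im := by rw [hzi]; exact hM0
  have hm : ∀ β : Env q, ‖mT s z β‖ ≤ M⁻¹ := fun β => hzi ▸ ld_norm_mT hT hs0 hs1 hz0 β
  have hMi : M⁻¹ ≤ 1 / 4 := by rw [inv_le_comm₀ hM0 (by norm_num)]; linarith
  have hMi0 : 0 < M⁻¹ := inv_pos.mpr hM0
  have h1 : ∀ e : SEnv q, |Real.log ‖ldW s z e‖ - Real.log M| ≤ 2 * (|E| + q + 2) / M := by
    intro e
    set x : ℂ := E - s * (e.1 : ℝ) + ∑ j, mT s z (e.2 j) with hx
    have hW : ldW s z e = M * I + x := by unfold ldW; rw [hx, hz]; ring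
    have hn : ‖(M * I : ℂ)‖ = M := by simp [abs_of_pos hM0]
    have hxn : ‖x‖ ≤ |E| + q + 2 := by
      have a1 : ‖(s * (e.1 : ℝ) : ℂ)‖ ≤ 1 := by
        rw [norm_mul, Complex.norm_real, Complex.norm_real, Real.norm_eq_abs, Real.norm_eq_abs,
          abs_of_nonneg hs0]
        have := abs_le.mpr e.1.2
        have := abs_nonneg (e.1 : ℝ)
        nlinarith
      have a2 : ‖∑ j, mT s z (e.2 j)‖ ≤ q + 1 := by
        refine (norm_sum_le _ _).trans ?_
        refine (Finset.sum_le_sum fun j _ => (hm (e.2 j)).trans (by linarith : M⁻¹ ≤ 1)).trans ?_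
        simp
      have a3 : ‖(E : ℂ)‖ = |E| := by simp
      calc ‖x‖ ≤ ‖(E : ℂ) - s * (e.1 : ℝ)‖ + ‖∑ j, mT s z (e.2 j)‖ := norm_add_le _ _
        _ ≤ ‖(E : ℂ)‖ + ‖(s * (e.1 : ℝ) : ℂ)‖ + ‖∑ j, mT s z (e.2 j)‖ := by
          gcongr; exact norm_sub_le _ _
        _ ≤ _ := by linarith
    have := ld_log_close (M * I) x (by simp [hM0.ne']) (by rw [hn]; linarith)
    rw [hn, ← hW] at this
    refine this.trans ?_
    rw [mul_div_assoc]; gcongr
  have h2 : ∀ e : EEnv q, |Real.log ‖ldD s z e‖| ≤ 2 / M := by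
    intro e
    have hx : ‖-(mT s z e.1 * mT s z e.2)‖ ≤ M⁻¹ * M⁻¹ := by
      rw [norm_neg, norm_mul]
      exact mul_le_mul (hm _) (hm _) (norm_nonneg _) hMi0.le
    have := ld_log_close 1 (-(mT s z e.1 * mT s z e.2)) one_ne_zero
      (by rw [norm_one]; nlinarith)
    rw [norm_one, Real.log_one, sub_zero, div_one, ← sub_eq_add_neg] at this
    refine this.trans ?_
    rw [div_eq_mul_inv]; nlinarith
  have h3 : |∫ e, Real.log ‖ldW s z e‖ ∂starLaw q π - Real.log M| ≤ 2 * (|E| + q + 2) / M := by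
    have := ld_abs_integral_le (starLaw q π) h1
    rwa [integral_sub (ld_integrable _ (ld_cont_logW hT hs0 hs1 hz0)) (integrable_const _),
      integral_const, probReal_univ, one_smul] at this
  have h4 := ld_abs_integral_le (edgeLaw q π) h2
  unfold ldB
  have h5 := abs_le.mp h3
  have h6 := abs_le.mp h4
  have h7 : (2 * (|E| + q + 2) + (q + 1)) / M = 2 * (|E| + q + 2) / M + (q + 1) / 2 * (2 / M) := by
    field_simp
  rw [h7, abs_le]
  constructor <;> nlinarith

end

end Crest.Agent.R166
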